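import Vale.Agent.P192.R2.H360.R.Defs

set_option linter.all false

/-! Row R2 (helper768): cuts with disjoint boundaries. -/

namespace Vale.Agent.P192.R2.H768

open Vale.Agent.P192 Vale.Agent.P192.H437 Vale.Agent.P192.H593 Vale.Agent.P192.R2.H577
open Vale.Agent.P192.R2.H360.R

universe u v

theorem fb_compl {G : Type v} {X : Type u} [Group G] [MulAction G X] (S : Set G) (D : Set X) :
    fb S Dᶜ = fb S D := by
  ext z
  simp only [fb, Set.mem_setOf_eq, Set.mem_compl_iff, not_not]
  constructor <;> rintro ⟨s, hs, h⟩ <;> exact ⟨s, hs, h.symm⟩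

theorem r2 : H360.R.R2.{u, v} := by
  classical
  intro G _ _ hG S hS K
  obtain ⟨m0, hm0⟩ := cuts.{u, v} G hG S hS
  refine ⟨2 * (2 * K + 2) ^ (m0 * (2 * K)), ?_⟩
  intro X _ _ x y m D0 hxy hK hdis
  -- orient
  obtain ⟨D, hD⟩ : ∃ D : Fin m → Set X, ∀ i, D i = if x ∈ D0 i then D0 i else (D0 i)ᶜ :=
    ⟨_, fun _ => rfl⟩
  have hfb : ∀ i, fb S (D i) = fb S (D0 i) := by
    intro i
    rw [hD]
    split_ifs
    · rfl
    · exact fb_compl S _
  have hx : ∀ i, x ∈ D i := by
    intro i
    rw [hD]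
    split_ifs with h
    · exact h
    · exact h
  have hy : ∀ i, y ∉ D i := by
    intro i
    rw [hD]
    rcases hxy i with h | h
    · rw [if_pos h.1]; exact h.2
    · rw [if_neg h.1]; exact fun h' => h' h.2
  simp only [← hfb] at hK hdis
  rcases Nat.eq_zero_or_pos m with hm | hm
  · omega
  -- the counting function
  obtain ⟨c, hc⟩ : ∃ c : X → ℕ, ∀ z, c z = (Finset.univ.filter (fun i => z ∈ D i)).card :=
    ⟨_, fun _ => rfl⟩
  have hcx : c x = m := by
    rw [hc, Finset.filter_true_of_mem (fun i _ => hx i), Finset.card_univ, Fintype.card_fin]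
  have hcy : c y = 0 := by
    rw [hc, Finset.card_eq_zero, Finset.filter_eq_empty_iff]
    exact fun i _ => hy i
  have hstep : ∀ z s, (s ∈ S ∨ s⁻¹ ∈ S) → c z ≤ c (s • z) + 1 := by
    intro z s hs
    rw [hc, hc]
    by_cases h : ∃ i, z ∈ D i ∧ s • z ∉ D i
    · obtain ⟨i, hi1, hi2⟩ := h
      have hzi : z ∈ fb S (D i) := ⟨s, hs, Or.inl ⟨hi1, hi2⟩⟩
      have : (Finset.univ.filter (fun i => z ∈ D i)) ⊆
          insert i (Finset.univ.filter (fun i => s • z ∈ D i)) := by
        intro j hj
        have hj' := (Finset.mem_filter.1 hj).2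
        by_cases hji : j = i
        · rw [hji]; exact Finset.mem_insert_self _ _
        · apply Finset.mem_insert_of_mem
          rw [Finset.mem_filter]
          refine ⟨Finset.mem_univ _, ?_⟩
          by_contra hn
          have hzj : z ∈ fb S (D j) := ⟨s, hs, Or.inl ⟨hj', hn⟩⟩
          exact Set.disjoint_left.1 (hdis j i hji) hzj hzi
      exact (Finset.card_le_card this).trans (Finset.card_insert_le _ _)
    · push Not at h
      refine (Finset.card_le_card ?_).trans (Nat.le_succ _)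
      intro j hj
      rw [Finset.mem_filter] at hj ⊢
      exact ⟨Finset.mem_univ _, h j hj.2⟩
  obtain ⟨C, hC⟩ : ∃ C : ℕ → Set X, ∀ j, C j = {z | m ≤ c z + j} := ⟨_, fun _ => rfl⟩
  have hbd : ∀ j, ∀ z ∈ bdry S (C j), c z + j = m ∧ ∃ i, z ∈ fb S (D i) := by
    intro j z hz
    obtain ⟨hz1, s, hs, hz2⟩ : z ∈ C j ∧ ∃ s, (s ∈ S ∨ s⁻¹ ∈ S) ∧ s • z ∉ C j := by
      obtain ⟨h1, s, hs, h2 | h2⟩ := hz
      · exact ⟨h1, s, Or.inl hs, h2⟩
      · exact ⟨h1, s⁻¹, Or.inr (by rwa [inv_inv]), h2⟩
    rw [hC] at hz1 hz2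
    simp only [Set.mem_setOf_eq] at hz1 hz2
    have h1 := hstep z s hs
    refine ⟨by omega, ?_⟩
    by_contra hn
    push Not at hn
    have : c z ≤ c (s • z) := by
      rw [hc, hc]
      refine Finset.card_le_card ?_
      intro j hj
      rw [Finset.mem_filter] at hj ⊢
      refine ⟨Finset.mem_univ _, ?_⟩
      by_contra hn'
      exact hn j ⟨s, hs, Or.inl ⟨hj.2, hn'⟩⟩
    omega
  have hcut := hm0 X C (m - 1) (2 * K) ⟨x, by rw [hC]; show m ≤ c x + 0; omega⟩ (by
    intro h
    have : y ∈ C (m - 1) := by rw [h]; trivial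
    rw [hC] at this
    have h' : m ≤ c y + (m - 1) := this
    omega) (by
    intro i hi z hz
    rw [hC] at hz ⊢
    have hz' : m ≤ c z + i := hz
    refine ⟨show m ≤ c z + (i + 1) by omega, fun s hs => ⟨?_, ?_⟩⟩
    · show m ≤ c (s • z) + (i + 1)
      have := hstep z s (Or.inl hs)
      omega
    · show m ≤ c (s⁻¹ • z) + (i + 1)
      have := hstep z s⁻¹ (Or.inr (by rwa [inv_inv]))
      omega)
  -- counting
  have hsum : ∑ j ∈ Finset.range m, (bdry S (C j)).encard ≤ ((m * K : ℕ) : ℕ∞) := by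
    have h1 : ∑ j ∈ Finset.range m, (bdry S (C j)).encard ≤ (⋃ i, fb S (D i)).encard := by
      have h2 : ∀ J : Finset ℕ, ∑ j ∈ J, (bdry S (C j)).encard =
          (⋃ j ∈ J, bdry S (C j)).encard := by
        intro J
        induction J using Finset.induction_on with
        | empty => simp
        | insert j J hj ih =>
          rw [Finset.sum_insert hj, ih, Finset.set_biUnion_insert, Set.encard_union_eq]
          rw [Set.disjoint_left]
          intro z hz hz'
          obtain ⟨j', hj', hz''⟩ := Set.mem_iUnion₂.1 hz'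
          have e1 := (hbd j z hz).1
          have e2 := (hbd j' z hz'').1
          have : j = j' := by omega
          exact hj (this ▸ hj')
      rw [h2]
      refine Set.encard_le_encard fun z hz => ?_
      obtain ⟨j, hj, hz'⟩ := Set.mem_iUnion₂.1 hz
      exact Set.mem_iUnion.2 (hbd j z hz').2
    refine h1.trans ?_
    have h3 : ∀ J : Finset (Fin m), (⋃ i ∈ J, fb S (D i)).encard ≤ ((J.card * K : ℕ) : ℕ∞) := by
      intro J
      induction J using Finset.induction_on with
      | empty => simp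
      | insert j J hj ih =>
        rw [Finset.set_biUnion_insert, Finset.card_insert_of_notMem hj]
        refine (Set.encard_union_le _ _).trans ((add_le_add (hK j) ih).trans_eq ?_)
        push_cast
        ring
    have h4 := h3 Finset.univ
    simpa using h4
  have hA : ((Finset.range m).filter fun j => (bdry S (C j)).encard ≤ ((2 * K : ℕ) : ℕ∞)).card ≤
      (2 * K + 2) ^ (m0 * (2 * K)) := by
    have h2 : ((((Finset.range m).filter fun j => (bdry S (C j)).encard ≤ ((2 * K : ℕ) : ℕ∞)) :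
        Finset ℕ) : Set ℕ) ⊆ {i | i ≤ m - 1 ∧ (bdry S (C i)).encard ≤ ((2 * K : ℕ) : ℕ∞)} := by
      intro i hi
      obtain ⟨h3, h4⟩ := Finset.mem_filter.1 hi
      have := Finset.mem_range.1 h3
      exact ⟨by omega, h4⟩
    have h3 := (Set.encard_le_encard h2).trans hcut
    rw [Set.encard_coe_eq_coe_finsetCard] at h3
    exact_mod_cast h3
  have hB : ((Finset.range m).filter fun j =>
      ¬ (bdry S (C j)).encard ≤ ((2 * K : ℕ) : ℕ∞)).card * (2 * K + 1) ≤ m * K := by
    have h2 : ((Finset.range m).filter fun j =>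
        ¬ (bdry S (C j)).encard ≤ ((2 * K : ℕ) : ℕ∞)).card • ((2 * K + 1 : ℕ) : ℕ∞) ≤
        ∑ i ∈ (Finset.range m).filter fun j =>
        ¬ (bdry S (C j)).encard ≤ ((2 * K : ℕ) : ℕ∞), (bdry S (C i)).encard := by
      apply Finset.card_nsmul_le_sum
      intro i hi
      have h3 : ((2 * K : ℕ) : ℕ∞) < (bdry S (C i)).encard := not_le.1 (Finset.mem_filter.1 hi).2
      rw [Nat.cast_add, Nat.cast_one]
      exact Order.add_one_le_of_lt h3
    have h3 : ∑ i ∈ (Finset.range m).filter fun j =>
        ¬ (bdry S (C j)).encard ≤ ((2 * K : ℕ) : ℕ∞), (bdry S (C i)).encard ≤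
        ∑ i ∈ Finset.range m, (bdry S (C i)).encard :=
      Finset.sum_le_sum_of_subset (Finset.filter_subset _ _)
    rw [nsmul_eq_mul, ← Nat.cast_mul] at h2
    exact_mod_cast (h2.trans h3).trans hsum
  have hAB : ((Finset.range m).filter fun j =>
      (bdry S (C j)).encard ≤ ((2 * K : ℕ) : ℕ∞)).card + ((Finset.range m).filter fun j =>
      ¬ (bdry S (C j)).encard ≤ ((2 * K : ℕ) : ℕ∞)).card = m := by
    rw [Finset.card_filter_add_card_filter_not, Finset.card_range]
  generalize ((Finset.range m).filter fun j =>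
      (bdry S (C j)).encard ≤ ((2 * K : ℕ) : ℕ∞)).card = A at *
  generalize ((Finset.range m).filter fun j =>
      ¬ (bdry S (C j)).encard ≤ ((2 * K : ℕ) : ℕ∞)).card = B at *
  generalize (2 * K + 2) ^ (m0 * (2 * K)) = Q at *
  have : 2 * B ≤ m := by
    by_contra h
    push Not at h
    nlinarith
  omega

end Vale.Agent.P192.R2.H768
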